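import Vale.Agent.Lib.P340.Finite

namespace Vale.Agent.Results.P340.AllResults

open Vale.Agent.P340

universe u

/-- (1) A pure type system that is weakly normalizing but not strongly normalizing contains
finitely many sorts on which the induced subsystem is again weakly normalizing but not strongly
normalizing.  (2) If every weakly normalizing pure type system with a finite set of sorts `Fin n`
is strongly normalizing, then so is every weakly normalizing pure type system on any set of sorts.
(3) For sets of sorts in `Type`, the conjecture is equivalent to its restriction to the sets of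
sorts `Fin n`. -/
theorem result :
    (∀ (S : Type u) (P : Spec S), WN P → ¬ SN P →
      ∃ (n : ℕ) (inc : Fin n → S), Function.Injective inc ∧
        WN (Spec.mk (fun a b => P.ax (inc a) (inc b))
          (fun a b c => P.rule (inc a) (inc b) (inc c))) ∧
        ¬ SN (Spec.mk (fun a b => P.ax (inc a) (inc b))
          (fun a b c => P.rule (inc a) (inc b) (inc c)))) ∧
    ((∀ (n : ℕ) (Q : Spec (Fin n)), WN Q → SN Q) →
      ∀ (S : Type u) (P : Spec S), WN P → SN P) ∧
    ((∀ (S : Type) (P : Spec S), WN P → SN P) ↔
      ∀ (n : ℕ) (Q : Spec (Fin n)), WN Q → SN Q) :=
  ⟨fun _ P hP hS => finite_subsystem P hP hS,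
    fun hfin _ P hP => finite_reduction hfin P hP,
    fun h n Q => h (Fin n) Q, fun hfin _ P hP => finite_reduction hfin P hP⟩

end Vale.Agent.Results.P340.AllResults
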