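import Vale.Agent.Lib.P340.Finite

namespace Vale.Agent.Results.P340.FiniteReduction

open Vale.Agent.P340

universe u

/-- If every weakly normalizing pure type system with a finite set of sorts `Fin n` is strongly
normalizing, then every weakly normalizing pure type system (on any set of sorts) is strongly
normalizing. -/
theorem result
    (hfin : ∀ (n : ℕ) (Q : Spec (Fin n)), WN Q → SN Q)
    (S : Type u) (P : Spec S) (hP : WN P) : SN P :=
  finite_reduction hfin P hP

end Vale.Agent.Results.P340.FiniteReduction
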