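import Vale.Agent.Lib.P340.Finite

namespace Vale.Agent.Results.P340.FiniteSubsystem

open Vale.Agent.P340

universe u

/-- A pure type system that is weakly normalizing but not strongly normalizing contains finitely
many sorts on which the induced subsystem is again weakly normalizing but not strongly
normalizing. -/
theorem result (S : Type u) (P : Spec S) (hP : WN P) (hS : ¬ SN P) :
    ∃ (n : ℕ) (inc : Fin n → S), Function.Injective inc ∧
      WN (Spec.mk (fun a b => P.ax (inc a) (inc b)) (fun a b c => P.rule (inc a) (inc b) (inc c))) ∧
      ¬ SN (Spec.mk (fun a b => P.ax (inc a) (inc b))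
        (fun a b c => P.rule (inc a) (inc b) (inc c))) :=
  finite_subsystem P hP hS

end Vale.Agent.Results.P340.FiniteSubsystem
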